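import Vale.Agent.P331.F.Q

/-!
# The constant ratio: the constants exist
-/

set_option autoImplicit false
set_option linter.unusedSectionVars false

namespace Vale.Agent.P331.F

open Finset

theorem rowCst_of (hA3 : RowA3) : RowCst := by
  obtain ⟨nm, hnm, h1⟩ := hA3 600 (by norm_num)
  obtain ⟨n, hn0, hnm', hn32⟩ : ∃ n : ℝ, 0 < n ∧ n ≤ nm ∧ n ≤ 1 / 32 :=
    ⟨min nm (1 / 32), lt_min hnm (by norm_num), min_le_left _ _, min_le_right _ _⟩
  obtain ⟨gm, hgm, h2⟩ := h1 n hn0 hnm'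
  obtain ⟨g, hg0, hgm', hg1⟩ : ∃ g : ℝ, 0 < g ∧ g ≤ gm ∧ g ≤ n / 1200 :=
    ⟨min gm (n / 1200), lt_min hgm (by linarith), min_le_left _ _, min_le_right _ _⟩
  obtain ⟨pm, hpm, h3⟩ := h2 g hg0 hgm'
  obtain ⟨B, hB16, hBn⟩ : ∃ B : ℕ, 16 ≤ B ∧ 4 / n ≤ (B : ℝ) := by
    refine ⟨max 16 ⌈4 / n⌉₊, le_max_left _ _, (Nat.le_ceil _).trans ?_⟩
    exact Nat.cast_le.2 (le_max_right _ _)
  have hBr : (16 : ℝ) ≤ (B : ℝ) := by exact_mod_cast hB16
  obtain ⟨M, hM⟩ : ∃ M : ℝ, M = (B : ℝ) ^ 24000 := ⟨_, rfl⟩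
  have hM0 : 0 < M := by rw [hM]; exact pow_pos (by linarith) _
  obtain ⟨p, hp0, hpm', hp4, hpM⟩ : ∃ p : ℝ, 0 < p ∧ p ≤ pm ∧ p ≤ 1 / 4 ∧ p ≤ g / (2 * M) := by
    refine ⟨min pm (min (1 / 4) (g / (2 * M))),
      lt_min hpm (lt_min (by norm_num) (div_pos hg0 (by linarith))), min_le_left _ _,
      (min_le_right _ _).trans (min_le_left _ _), (min_le_right _ _).trans (min_le_right _ _)⟩
  have hg14 : 0 < 1 - 2 * g := by linarith
  have hθ0 : 0 < n / (1 - 2 * g) := div_pos hn0 hg14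
  have hθ1 : n / (1 - 2 * g) ≤ 1 / 16 := by
    rw [div_le_iff₀ hg14]
    linarith
  have hη0 : 0 < g / n := div_pos hg0 hn0
  have hη1 : g / n ≤ 1 / 1200 := by
    rw [div_le_iff₀ hn0]
    linarith
  refine ⟨p, g, n, 4, B, ?_⟩
  exact
    { p0 := hp0
      p1 := hp4
      g0 := hg0
      gn := by linarith
      n0 := hn0
      n1 := by linarith
      lam1 := by norm_num
      lamB := by linarith
      B16 := hB16
      nB := hBn
      lam0 := by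
        rw [← hM, le_div_iff₀ hp0]
        rw [le_div_iff₀ (by linarith)] at hpM
        have h5 : g / 2 ≤ (1 - p) * g := by nlinarith
        linarith
      qj := rowQ 4 _ _ hθ0 hθ1 hη0 hη1 le_rfl
      hc := h3 p hp0 hpm' }

end Vale.Agent.P331.F
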