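import Vale.Agent.P331.H250.Ker

/-!
# The constant ratio: definitions for one target

`D` is an up-set of subsets of `E` (the sets whose heavier part spans the target), `V` is the test
set, `S` its complement (the sample).  Everything which the rule uses is computed from `S` by
thinnings: `G` is a pool, `N` the noise, both are random exclusive subsets of `S`.
-/

set_option autoImplicit false
set_option linter.unusedSectionVars false

namespace Vale.Agent.P331.F

open Finset Vale.Agent.P331.H489 Vale.Agent.P331.H250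
open scoped Classical

noncomputable section

/-- indicator -/
def ind (P : Prop) : ℝ := if P then 1 else 0

variable {E : Type} [Fintype E]

/-- expectation over a random subset of `S` with rate `t` -/
def Th (t : ℝ) (S : Finset E) (f : Finset E → ℝ) : ℝ := TH (fun _ => t) S f

/-- up-set -/
def Up (D : Finset E → Prop) : Prop := ∀ A B : Finset E, A ⊆ B → D A → D B

/-- the constants of one level: size of a fragment, size of a forbidden set, precisions -/
structure Lv where
  κ : ℕ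
  Z : ℕ
  δ : ℝ
  τ : ℝ

/-- `1000`-free numbers: `xx B j = B ^ (200 ^ j)` -/
def xx (B j : ℕ) : ℕ := B ^ 200 ^ j

/-- the constants of level `j` -/
def lev (B j : ℕ) : Lv where
  κ := 200 ^ j - 1
  Z := xx B j ^ 161
  δ := ((xx B j : ℝ) ^ 20)⁻¹
  τ := ((xx B j : ℝ))⁻¹

/-- the fragment `Y` is good for the pool `G` : with the noise it captures the target, up to
a small probability. `t` is the rate of the noise relative to `S \ G`. -/
def good (t : ℝ) (l : Lv) (D : Finset E → Prop) (S G Y : Finset E) : Prop :=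
  Y.card ≤ l.κ ∧ Th t (S \ G) (fun N => ind (¬ D (Y ∪ G ∪ N))) ≤ l.δ / (Y.card + 1)

/-- the probability that the pool has no good fragment in `X` -/
def ff (g t : ℝ) (l : Lv) (D : Finset E → Prop) (S X : Finset E) : ℝ :=
  Th g S (fun G => ind (¬ ∃ Y ⊆ X, good t l D S G Y))

/-- `X` violates the target at level `l` -/
def vio (g t : ℝ) (l : Lv) (D : Finset E → Prop) (S X : Finset E) : Prop :=
  X.card ≤ l.Z ∧ ff g t l D S X ≤ l.τ / (X.card + 1)

/-- the forbidden sets of level `j ≥ 1` -/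
def Bad (g t : ℝ) (B j : ℕ) (D : Finset E → Prop) (S X : Finset E) : Prop :=
  vio g t (lev B j) D S X ∧ (∀ X' ⊂ X, ¬ vio g t (lev B j) D S X') ∧
    ∀ X' ⊆ X, ¬ vio g t (lev B (j - 1)) D S X'

/-- the influence of `b` on `D` at the rate `q` -/
def JJ (q : ℝ) (D : Finset E → Prop) (b : E) : ℝ :=
  Th q (univ.erase b) (fun N => ind (D (insert b N) ∧ ¬ D N))

/-- the family `F_R` : for most pools `G ⊆ R` some fragment of size at most `κ` in `A` is good -/
def Fam (g₁ t₁ a : ℝ) (κ : ℕ) (δ : ℝ) (D : Finset E → Prop) (R A : Finset E) : Prop :=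
  Th g₁ R (fun G => ind (¬ ∃ Y ⊆ A, Y.card ≤ κ ∧
    Th t₁ (R \ G) (fun N => ind (¬ D (Y ∪ G ∪ N))) ≤ δ)) ≤ a

end

/-- **QJRL, event form** for the rates `θ` (noise), `η` (ratio) and the price `lam`.
`X` and `R` are exclusive random sets with absolute rates `v = ρ η θ` and `ρ`. -/
def QJ (lam θ η : ℝ) : Prop :=
  ∀ (E : Type) [Fintype E] (D : Finset E → Prop), Up D → ∀ (U : Finset E) (v ρ : ℝ),
    0 < ρ → v = ρ * η * θ → v + ρ ≤ 1 → ∀ (κ : ℕ) (δ a : ℝ), 0 ≤ δ → 0 < a →
    Th v U (fun X => Th (ρ / (1 - v)) (U \ X) (fun R => ind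
      ((∃ Y ⊆ X, Y.card ≤ κ ∧ Th θ R (fun N => ind (¬ D (Y ∪ N))) ≤ δ) ∧
        a < Th (θ * (1 - η)) R (fun N => ind (¬ D (X ∪ N)))))) ≤
      (lam ^ κ * δ) ^ 7 / a ^ 16

/-- **Hypercontractivity, event form**: contexts `Y` in the test set `V`, price `1/2` per element. -/
def HC (p g n : ℝ) (r : ℕ) : Prop :=
  ∀ (E : Type) [Fintype E] (P : Finset E → Prop) (U : Finset E) (κ : ℕ) (δ : ℝ), 0 < δ →
    Th p U (fun V => Th g (U \ V) (fun G => ind
      (∃ Y ⊆ V, Y.card ≤ κ ∧ δ ≤ Th (n / (1 - g)) ((U \ V) \ G)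
        (fun N => ind (P (Y ∪ G ∪ N)))))) ≤
      (2 ^ κ / δ) ^ (2 * r) * (Th ((1 - p) * (g + n)) U (fun N => ind (P N))) ^ r

/-- all the constants -/
structure Cst (p g n lam : ℝ) (B : ℕ) : Prop where
  p0 : 0 < p
  p1 : p ≤ 1 / 4
  g0 : 0 < g
  gn : g ≤ n / 4
  n0 : 0 < n
  n1 : n ≤ 1 / 8
  lam1 : 1 ≤ lam
  lamB : lam ≤ B
  B16 : 16 ≤ B
  nB : 4 / n ≤ B
  lam0 : (B : ℝ) ^ 24000 ≤ (1 - p) * g / p
  qj : QJ lam (n / (1 - 2 * g)) (g / n)
  hc : HC p g n 600

end Vale.Agent.P331.F
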