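import Vale.Agent.P331.H352.Vio
import Vale.Agent.P331.H352.Core

/-!
# The final step, for both lines

A rule for every finite matroid in which the test label has the absolute probability `p` and the
total blame of every element of the greedy basis is at most `p / 2` gives the constant ratio.
-/

set_option autoImplicit false
set_option linter.unusedSectionVars false

namespace Vale.Agent.P331.F

open Finset Vale.Agent.P331 Vale.Agent.P331.H819 Vale.Agent.P331.H489 Vale.Agent.P331.H352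
open scoped Classical ENNReal

/-- The constant ratio for all finite matroids. -/
def Main : Prop :=
  ∃ c : ℝ, 0 < c ∧ ∀ (E : Type) [Fintype E] (M : Matroid E), M.E = Set.univ →
    ∃ R : OnlineRule M, R.IsCompetitive (ENNReal.ofReal c)

/-- Socket: frames. -/
def SockF (p : ℝ) : Prop :=
  ∀ (E : Type) [Fintype E] (M : Matroid E), M.E = Set.univ →
    ∃ (L : Type) (_ : Fintype L) (_ : DecidableEq L) (D : Frame E L), D.w D.v = p ∧
      (∀ lt : E → E → Prop, IsStrictTotalOrder E lt → D.Ok M lt) ∧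
      ∀ lt : E → E → Prop, IsStrictTotalOrder E lt → ∀ b, b ∉ M.closure {f | lt b f} →
        ∑ z ∈ univ.erase b, EX (fun _ => D.w)
          (fun ω : E → L => if Blame D lt b z ω then 1 else 0) ≤ p / 2

/-- Socket of line B: violations. -/
def SockB (p : ℝ) : Prop :=
  ∀ (E : Type) [Fintype E] (M : Matroid E), M.E = Set.univ →
    ∃ (L : Type) (_ : Fintype L) (_ : DecidableEq L) (D : Vios E L), D.w D.v = p ∧
      (∀ lt : E → E → Prop, IsStrictTotalOrder E lt → D.Ok M lt) ∧
      ∀ lt : E → E → Prop, IsStrictTotalOrder E lt → ∀ b, b ∉ M.closure {f | lt b f} →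
        ∑ z ∈ univ.erase b, ∑ j ∈ Icc 1 D.n, EX (fun _ => D.w)
          (fun ω : E → L => if D.Ev lt j b z ω then 1 else 0) ≤ p / 2

/-- Socket of line A: cores. -/
def SockA (p : ℝ) : Prop :=
  ∀ (E : Type) [Fintype E] (M : Matroid E), M.E = Set.univ →
    ∃ (L : Type) (_ : Fintype L) (_ : DecidableEq L) (D : Cores E L), D.w D.v = p ∧
      (∀ lt : E → E → Prop, IsStrictTotalOrder E lt → D.Ok M lt) ∧
      ∀ lt : E → E → Prop, IsStrictTotalOrder E lt → ∀ b, b ∉ M.closure {f | lt b f} →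
        ∑ z ∈ univ.erase b, ∑ j ∈ Icc 1 D.n, EX (fun _ => D.w)
          (fun ω : E → L => if D.Ev lt j b z ω then 1 else 0) ≤ p / 2

theorem main_of_frames {p : ℝ} (hp : 0 < p) (h : SockF p) : Main := by
  refine ⟨p / 2, half_pos hp, fun E _ M hM => ?_⟩
  obtain ⟨L, _, _, D, hw, hok, hsum⟩ := h E M hM
  refine ⟨_, competitive_of_blame (D := D) hM hok fun lt hlt b hb => ?_⟩
  have h1 := hsum lt hlt b hb
  rw [hw]
  linarith

theorem main_of_vios {p : ℝ} (hp : 0 < p) (h : SockB p) : Main := by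
  refine ⟨p / 2, half_pos hp, fun E _ M hM => ?_⟩
  obtain ⟨L, _, _, D, hw, hok, hsum⟩ := h E M hM
  refine ⟨_, competitive_of_vio (D := D) hM hok fun lt hlt b hb => ?_⟩
  have h1 := hsum lt hlt b hb
  rw [hw]
  linarith

theorem main_of_cores {p : ℝ} (hp : 0 < p) (h : SockA p) : Main := by
  refine ⟨p / 2, half_pos hp, fun E _ M hM => ?_⟩
  obtain ⟨L, _, _, D, hw, hok, hsum⟩ := h E M hM
  refine ⟨_, competitive_of_ev (D := D) hM hok fun lt hlt b hb => ?_⟩
  have h1 := hsum lt hlt b hb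
  rw [hw]
  linarith

/-- blame against a bound for every target: it is enough that the event of `z` has probability at
most `p β_z` with `∑ β_z ≤ 1 / 2`. -/
theorem sum_le_half {E : Type} [Fintype E] {p : ℝ} (hp : 0 ≤ p) {b : E} {n : ℕ}
    {P : E → ℕ → ℝ} {β : E → ℝ} (h1 : ∀ z, z ≠ b → ∑ j ∈ Icc 1 n, P z j ≤ p * β z)
    (h2 : ∑ z ∈ univ.erase b, β z ≤ 1 / 2) :
    ∑ z ∈ univ.erase b, ∑ j ∈ Icc 1 n, P z j ≤ p / 2 := by
  calc ∑ z ∈ univ.erase b, ∑ j ∈ Icc 1 n, P z j ≤ ∑ z ∈ univ.erase b, p * β z :=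
        sum_le_sum fun z hz => h1 z (ne_of_mem_erase hz)
    _ = p * ∑ z ∈ univ.erase b, β z := (mul_sum _ _ _).symm
    _ ≤ p * (1 / 2) := mul_le_mul_of_nonneg_left h2 hp
    _ = p / 2 := by ring

end Vale.Agent.P331.F
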