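import Vale.Agent.P331.F.Sock
import Vale.Agent.P331.H318.OneC
import Vale.Agent.P331.H316.HC
import Vale.Agent.P331.H316.BE
import Vale.Agent.P331.H316.CH
import Vale.Agent.P331.H250.Drop
import Vale.Agent.P331.H250.Core
import Vale.Agent.P331.H250.MK
import Vale.Agent.P331.H379.RowJST
import Vale.Agent.P331.H454.RowQJ
import Vale.Agent.P331.H923.Step
import Vale.Agent.P331.H679.Sum
import Vale.Agent.P331.H763.Rule

/-!
# Line A: the assembly

All rows of `H316/Rows.lean` are proved; here they are put together.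
-/

set_option autoImplicit false

namespace Vale.Agent.P331.F

open Vale.Agent.P331 Vale.Agent.P331.H316
open scoped ENNReal

theorem rowDROPA : RowDROP := by
  intro E _ D hD P R I j K ht0 ht1 hg0 hg1 hn0 hn1 hdl _
  obtain ⟨st, h1, h2⟩ := Vale.Agent.P331.H250.drop D hD P R I j K ht0 ht1 hg0 hg1 hn0 hn1 hdl
  exact ⟨st, h1, fun U hU W _ hc hr => h2 U hU W hc hr⟩

theorem rowSTEPA : RowSTEP :=
  Vale.Agent.P331.H923.rowSTEP Vale.Agent.P331.H454.rowSPLIT Vale.Agent.P331.H379.rowJST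
    Vale.Agent.P331.H250.rowMK Vale.Agent.P331.H454.rowQJ rowDROPA

theorem rowCOREA : RowCORE := Vale.Agent.P331.H250.rowCORE rowHC rowBES

theorem goodA : ∃ (p s₁ s₂ : ℝ) (P : Par), Good p s₁ s₂ P :=
  Vale.Agent.P331.H679.rowSUM Vale.Agent.P331.H318.rowONE rowCOREA rowSTEPA rowCH

/-- **The constant ratio for all finite matroids.** -/
theorem mainA : Main := by
  obtain ⟨p, s₁, s₂, P, hG⟩ := goodA
  exact ⟨p / 2, half_pos hG.1, fun E _ M hM =>
    Vale.Agent.P331.H316.R763.rowRULE p s₁ s₂ P hG rowENT E M hM⟩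

end Vale.Agent.P331.F
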