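import Vale.Agent.P331.F.Rows
import Vale.Agent.P331.H514.QE
import Vale.Agent.P331.H231.Scal

/-!
# The constant ratio: the quenched joint removal lemma in the form `QJ`
-/

set_option autoImplicit false
set_option linter.unusedSectionVars false

namespace Vale.Agent.P331.F

open Finset Vale.Agent.P331.H489 Vale.Agent.P331.H250
open scoped Classical

theorem scal88 {θ η lam : ℝ} (hθ0 : 0 ≤ θ) (hθ : θ ≤ 1 / 16) (hη0 : 0 ≤ η) (hη : η ≤ 1 / 1200)
    (hlam : 4 ≤ lam) : H514.Scal 8 8 θ η lam := by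
  intro a b ha ha1 hb hb1
  have h := H231.scal8 hθ0 hθ hη0 hη hlam ha ha1 hb hb1
  have hla : 0 < lam * a := mul_pos (by linarith) ha
  have hmin : 0 < min (lam * a) 1 := lt_min hla one_pos
  have h2 : b ^ (8 + 8) / min (lam * a) 1 ^ 8 ≤ b ^ 16 * max 1 (1 / (lam * a) ^ 8) := by
    rw [div_eq_mul_one_div]
    refine mul_le_mul_of_nonneg_left ?_ (pow_nonneg hb 16)
    rcases le_total (lam * a) 1 with h3 | h3
    · rw [min_eq_left h3]
      exact le_max_right _ _
    · rw [min_eq_right h3]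
      simp
  have h3 := mul_le_mul_of_nonneg_left h2 (mul_nonneg hη0 hθ0)
  exact (add_le_add (le_refl _) h3).trans h

section

variable {E : Type} [Fintype E]

theorem TH_rate_zero (S : Finset E) (f : Finset E → ℝ) : TH (fun _ => (0 : ℝ)) S f = f ∅ := by
  rw [TH_eq_sum, Finset.sum_eq_single ∅]
  · simp
  · intro G _ hG
    have h1 : G.card ≠ 0 := fun h => hG (Finset.card_eq_zero.1 h)
    simp [Finset.prod_const, zero_pow h1]
  · intro h
    exact absurd (Finset.empty_mem_powerset S) h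

theorem ind_nonneg (P : Prop) : 0 ≤ ind P := by unfold ind; split_ifs <;> norm_num

theorem ind_le_one (P : Prop) : ind P ≤ 1 := by unfold ind; split_ifs <;> norm_num

theorem ind_mono {P Q : Prop} (h : P → Q) : ind P ≤ ind Q := by
  unfold ind
  by_cases hP : P
  · rw [if_pos hP, if_pos (h hP)]
  · rw [if_neg hP]
    split_ifs <;> norm_num

end

/-- A1 and A2 : the quenched joint removal lemma -/
def RowQ : Prop := ∀ lam θ η : ℝ, 0 < θ → θ ≤ 1 / 16 → 0 < η → η ≤ 1 / 1200 → 4 ≤ lam →
  QJ lam θ η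

theorem rowQ : RowQ := by
  intro lam θ η hθ0 hθ hη0 hη hlam E _ D hD U v ρ hρ hv hvρ κ δ a hδ ha
  have hηθ : 0 < η * θ := mul_pos hη0 hθ0
  have hv0 : 0 < v := by rw [hv, mul_assoc]; exact mul_pos hρ hηθ
  have hv1 : v < 1 := by linarith
  have hv1' : (0 : ℝ) < 1 - v := by linarith
  -- the trivial case
  have htriv : ∀ P : Finset E → Finset E → Prop,
      Th v U (fun X => Th (ρ / (1 - v)) (U \ X) (fun R => ind (P X R))) ≤ 1 := by
    intro P
    have hq0 : 0 ≤ ρ / (1 - v) := div_nonneg hρ.le hv1'.le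
    have hq1 : ρ / (1 - v) ≤ 1 := by rw [div_le_one hv1']; linarith
    have h1 : ∀ X : Finset E, Th (ρ / (1 - v)) (U \ X) (fun R => ind (P X R)) ≤ 1 := by
      intro X
      have := TH_mono (r := fun _ : E => ρ / (1 - v)) (fun _ => hq0) (fun _ => hq1) (U \ X)
        (f := fun R => ind (P X R)) (g := fun _ => 1) (fun R _ => ind_le_one _)
      rwa [TH_const] at this
    have := TH_mono (r := fun _ : E => v) (fun _ => hv0.le) (fun _ => hv1.le) U
      (f := fun X => Th (ρ / (1 - v)) (U \ X) (fun R => ind (P X R))) (g := fun _ => 1)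
      (fun X _ => h1 X)
    rwa [TH_const] at this
  have hl0 : 0 < lam ^ κ := pow_pos (by linarith) κ
  have hz0 : 0 ≤ lam ^ κ * δ := mul_nonneg hl0.le hδ
  rcases lt_or_ge 1 a with ha1 | ha1
  · -- the event is impossible
    have h1 : Th v U (fun X => Th (ρ / (1 - v)) (U \ X) (fun R => ind
        ((∃ Y ⊆ X, Y.card ≤ κ ∧ Th θ R (fun N => ind (¬ D (Y ∪ N))) ≤ δ) ∧
          a < Th (θ * (1 - η)) R (fun N => ind (¬ D (X ∪ N)))))) = 0 := by
      have h2 : ∀ X R : Finset E, ind
          ((∃ Y ⊆ X, Y.card ≤ κ ∧ Th θ R (fun N => ind (¬ D (Y ∪ N))) ≤ δ) ∧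
          a < Th (θ * (1 - η)) R (fun N => ind (¬ D (X ∪ N)))) = 0 := by
        intro X R
        unfold ind
        rw [if_neg]
        rintro ⟨_, h3⟩
        have hc0 : 0 ≤ θ * (1 - η) := mul_nonneg hθ0.le (by linarith)
        have hc1 : θ * (1 - η) ≤ 1 := by nlinarith
        have h4 := TH_mono (r := fun _ : E => θ * (1 - η)) (fun _ => hc0) (fun _ => hc1) R
          (f := fun N => ind (¬ D (X ∪ N))) (g := fun _ => 1) (fun R _ => ind_le_one _)
        rw [TH_const] at h4
        have h5 : Th (θ * (1 - η)) R (fun N => ind (¬ D (X ∪ N))) ≤ 1 := h4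
        unfold ind at h5
        linarith
      simp only [h2]
      have h6 : ∀ (t : ℝ) (S : Finset E), Th t S (fun _ => (0 : ℝ)) = 0 :=
        fun t S => TH_const _ _ _
      simp only [h6]
    rw [h1]
    exact div_nonneg (pow_nonneg hz0 7) (pow_nonneg ha.le 16)
  rcases lt_or_ge 1 (lam ^ κ * δ) with hz1 | hz1
  · refine (htriv _).trans ?_
    rw [one_le_div (pow_pos ha 16)]
    exact (pow_le_one₀ ha.le ha1).trans (one_le_pow₀ hz1.le)
  -- the main case
  have hrr : ∀ e ∈ U, (1 - v) * (ρ / (1 - v)) = ρ := fun _ _ => by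
    field_simp
  set F : Finset E → Finset E → ℝ := fun X R => ind
      ((∃ Y ⊆ X, Y.card ≤ κ ∧ Th θ R (fun N => ind (¬ D (Y ∪ N))) ≤ δ) ∧
        a < Th (θ * (1 - η)) R (fun N => ind (¬ D (X ∪ N)))) with hF
  have h1 : Th v U (fun X => Th (ρ / (1 - v)) (U \ X) (fun R => F X R)) =
      EX (bw2 (fun _ : E => v) (fun _ => ρ) U)
        (fun ω => F (lset (some true) ω) (lset (some false) ω)) := by
    have h2 := TH_TH (fun _ : E => v) (fun _ => ρ / (1 - v)) U F
    have h3 := T2_congr_rates (S := U) (a := fun _ : E => v) (a' := fun _ => v)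
      (b := fun e => (1 - v) * (ρ / (1 - v))) (b' := fun _ => ρ) (fun _ _ => rfl) hrr F
    exact h2.trans h3
  have hw0 : ∀ (e : E) (l : Option Bool), 0 ≤ bw2 (fun _ : E => v) (fun _ => ρ) U e l := by
    intro e l
    unfold bw2
    split_ifs
    · exact hv0.le
    · exact hρ.le
    · linarith
    · norm_num
    · norm_num
  have hw1 : ∀ e : E, ∑ l, bw2 (fun _ : E => v) (fun _ => ρ) U e l = 1 := by
    intro e
    rw [Fintype.sum_option, Fintype.sum_bool]
    by_cases he : e ∈ U
    · simp [bw2, he]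
    · simp [bw2, he]
  have hmain := H514.qjrl_TH (E := E) (L := Option Bool) (x := some true) (r := some false)
    (o := none) (m := 8) (s := 8) (θ := θ) (η := η) (lam := lam) (γ := 0) (α := δ) (β := a)
    (k := κ) (scal88 hθ0.le hθ hη0.le hη hlam) (by simp) (by simp) (by simp) (by linarith)
    hθ0.le (by linarith) hη0.le (by linarith) le_rfl zero_le_one
    (bw2 (fun _ : E => v) (fun _ => ρ) U) hw0 hw1
    (by
      intro e
      by_cases he : e ∈ U
      · simp [bw2, he]
        rw [hv]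
        ring
      · simp [bw2, he])
    (fun _ A => ind (¬ D A)) (fun _ A => ind_nonneg _) (fun _ A => ind_le_one _)
    (fun _ A B hAB => ind_mono fun hB hA => hB (hD A B hAB hA)) hδ ha.le
  have h4 : EX (bw2 (fun _ : E => v) (fun _ => ρ) U)
        (fun ω => F (lset (some true) ω) (lset (some false) ω)) ≤
      EX (bw2 (fun _ : E => v) (fun _ => ρ) U)
        (fun ω => TH (fun _ => (0 : ℝ)) (lset (some false) ω) (fun G =>
      if (∃ Y : Finset E, Y ⊆ lset (some true) ω ∧ Y.card ≤ κ ∧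
          TH (fun _ => θ) (lset (some false) ω \ G) (fun N => ind (¬ D (Y ∪ G ∪ N))) ≤ δ) ∧
        a ≤ TH (fun _ => θ * (1 - η)) (lset (some false) ω \ G)
          (fun N => ind (¬ D (lset (some true) ω ∪ G ∪ N))) then (1 : ℝ) else 0)) := by
    refine EX_mono hw0 fun ω => ?_
    rw [TH_rate_zero]
    simp only [Finset.sdiff_empty, Finset.union_empty]
    by_cases hP : (∃ Y ⊆ lset (some true) ω, Y.card ≤ κ ∧
        Th θ (lset (some false) ω) (fun N => ind (¬ D (Y ∪ N))) ≤ δ) ∧
        a < Th (θ * (1 - η)) (lset (some false) ω) (fun N => ind (¬ D (lset (some true) ω ∪ N)))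
    · rw [if_pos]
      · exact ind_le_one _
      · obtain ⟨⟨Y, hY, hYk, hYα⟩, hb⟩ := hP
        exact ⟨⟨Y, hY, hYk, hYα⟩, hb.le⟩
    · have h6 : F (lset (some true) ω) (lset (some false) ω) = 0 := by
        simp only [hF]
        unfold ind
        exact if_neg hP
      rw [h6]
      split_ifs
      · exact zero_le_one
      · exact le_rfl
  have h5 : a ^ 16 * EX (bw2 (fun _ : E => v) (fun _ => ρ) U)
        (fun ω => F (lset (some true) ω) (lset (some false) ω)) ≤ (lam ^ κ * δ) ^ 8 :=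
    (mul_le_mul_of_nonneg_left h4 (pow_nonneg ha.le 16)).trans hmain
  rw [h1, le_div_iff₀ (pow_pos ha 16), mul_comm]
  refine h5.trans ?_
  exact pow_le_pow_of_le_one hz0 hz1 (by norm_num)

end Vale.Agent.P331.F
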