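import Vale.Agent.P331.F.Defs
import Vale.Agent.P331.H352.Det

/-!
# The constant ratio: the statements of the rows
-/

set_option autoImplicit false
set_option linter.unusedSectionVars false

namespace Vale.Agent.P331.F

open Finset Vale.Agent.P331 Vale.Agent.P331.H489 Vale.Agent.P331.H250 Vale.Agent.P331.H352
open scoped Classical ENNReal

noncomputable section

/-! ## A1, A2, A3, A4 : inequalities -/

/-- the one-coordinate inequality of QJRL -/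
def OneC (θ η lam : ℝ) : Prop := ∀ b a : ℝ, 0 ≤ b → b ≤ 1 → 0 < a → a ≤ 1 →
  (1 - θ * (1 - η) * (1 - b)) ^ 16 / (1 - θ * (1 - a)) ^ 7 +
      η * θ * b ^ 16 * max 1 (1 / (lam * a) ^ 7) ≤
    1 - θ + η * θ + θ * b ^ 16 / a ^ 7

/-- A1 -/
def RowA1 : Prop := ∃ nm : ℝ, 0 < nm ∧ ∀ n, 0 < n → n ≤ nm → ∃ ηm : ℝ, 0 < ηm ∧
  ∃ lam : ℝ, 1 ≤ lam ∧ ∀ θ, n ≤ θ → θ ≤ 2 * n → ∀ η, 0 < η → η ≤ ηm → OneC θ η lam

/-- A2 (induction over the coordinates and Markov) -/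
def RowA2 : Prop := ∀ θ η lam : ℝ, 0 < θ → θ ≤ 1 / 2 → 0 < η → η ≤ 1 / 2 → 1 ≤ lam →
  OneC θ η lam → QJ lam θ η

/-- A3 -/
def RowA3 : Prop := ∀ r : ℕ, 1 ≤ r → ∃ nm : ℝ, 0 < nm ∧ ∀ n, 0 < n → n ≤ nm →
  ∃ gm : ℝ, 0 < gm ∧ ∀ g, 0 < g → g ≤ gm → ∃ pm : ℝ, 0 < pm ∧ ∀ p, 0 < p → p ≤ pm → HC p g n r

/-- A4 Bessel -/
def RowBes : Prop := ∀ (E : Type) [Fintype E] (D : Finset E → Prop), Up D → ∀ q : ℝ, 0 < q →
  q < 1 → ∑ b : E, JJ q D b ^ 2 ≤ 1 / (4 * (q * (1 - q)))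

/-- the up-set of a target : the heavier part spans `z` -/
def DD {E : Type} (M : Matroid E) (lt : E → E → Prop) (z : E) (A : Finset E) : Prop :=
  z ∈ M.closure {e | lt z e ∧ e ∈ A}

/-- A4 entrance -/
def RowEnt : Prop := ∀ (E : Type) [Fintype E] (M : Matroid E), M.E = Set.univ →
  ∀ lt : E → E → Prop, IsStrictTotalOrder E lt → ∀ q : ℝ, 0 < q → q ≤ 1 → ∀ b : E,
    ∑ z ∈ univ.erase b, JJ q (DD M lt z) b ≤ 1 / q

/-- A8 : the constants exist -/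
def RowCst : Prop := ∃ (p g n lam : ℝ) (B : ℕ), Cst p g n lam B

/-! ## A5 : significance -/

/-- `f` is needed by some good fragment of test elements for the pool `G` -/
def Need (t : ℝ) (l : Lv) {E : Type} [Fintype E] (D : Finset E → Prop) (V G : Finset E)
    (f : E) : Prop :=
  f ∈ V ∧ ∃ Y ⊆ V, f ∈ Y ∧ good t l D (univ \ V) G Y ∧ ¬ good t l D (univ \ V) G (Y.erase f)

/-- A5 (context event) -/
def RowCtx : Prop := ∀ (p g n lam : ℝ) (B : ℕ), Cst p g n lam B → ∀ (E : Type) [Fintype E]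
  (D : Finset E → Prop), Up D → ∀ (j : ℕ) (f : E),
    Th p univ (fun V => Th g (univ \ V) (fun G => ind (Need (n / (1 - g)) (lev B j) D V G f))) ≤
      ((xx B j : ℝ) ^ 23) ^ 1200 * JJ ((1 - p) * (g + n)) D f ^ 600

/-- A5 (Lemma R) -/
def RowR : Prop := ∀ (p g n lam : ℝ) (B : ℕ), Cst p g n lam B → ∀ (E : Type) [Fintype E]
  (D : Finset E → Prop), Up D → ∀ (j : ℕ) (b : E),
    Th p univ (fun V => ind (∃ X ⊆ V, b ∈ X ∧ vio g (n / (1 - g)) (lev B j) D (univ \ V) X ∧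
      ∀ X' ⊂ X, ¬ vio g (n / (1 - g)) (lev B j) D (univ \ V) X')) ≤
      (xx B j : ℝ) ^ 27925 * JJ ((1 - p) * (g + n)) D b ^ 600

/-! ## A6 : luck -/

/-- A6a : transfer from `S` to `S \ G₂` -/
def RowTr : Prop := ∀ (E : Type) [Fintype E] (D : Finset E → Prop) (S X : Finset E)
  (g n : ℝ) (κ : ℕ) (δ τ a T : ℝ), 0 < g → g ≤ 1 / 4 → 0 ≤ n → n ≤ 1 / 4 → 0 < δ → 0 < a →
    0 < T →
    Th g S (fun G => ind (¬ ∃ Y ⊆ X, Y.card ≤ κ ∧
      Th (n / (1 - g)) (S \ G) (fun N => ind (¬ D (Y ∪ G ∪ N))) ≤ δ)) ≤ τ →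
    Th g S (fun G₂ => ind (¬ Fam (g / (1 - g)) (n / (1 - 2 * g)) a κ (T * δ) D (S \ G₂) X)) ≤
      (τ + 1 / T) / a

/-- A6b : the injection `J*`, for an arbitrary family `Fm` of up-sets and an arbitrary
property `Hp`; `R` is the complement of `V ∪ G` -/
def RowJ : Prop := ∀ (E : Type) [Fintype E] (Fm Hp : Finset E → Finset E → Prop),
  (∀ R A A' : Finset E, A ⊆ A' → Fm R A → Fm R A') → ∀ (p g : ℝ) (κ : ℕ), 0 < p → p < 1 →
    0 < g → g < 1 → p ≤ (1 - p) * g →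
    Th p univ (fun V => Th g (univ \ V) (fun G => ind (∃ K ⊆ V, Fm ((univ \ V) \ G) K ∧
      ∀ U' ⊆ K, U'.card ≤ κ → ¬ Hp ((univ \ V) \ G) (U' ∪ G)))) ≤
    (p / ((1 - p) * g)) ^ (κ + 1) +
      Th ((1 - p) * g) univ (fun X => Th ((1 - p) * (1 - g) / (1 - (1 - p) * g)) (univ \ X)
        (fun R => ind (Fm R X ∧ ¬ Hp R X)))

/-- A6c : use of QJRL for every fixed pool, and `G ∪ N'''` is the noise of the next level -/
def RowC : Prop := ∀ (p g n lam : ℝ), 0 < p → p ≤ 1 / 4 → 0 < g → g ≤ n / 4 → n ≤ 1 / 8 →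
  1 ≤ lam → QJ lam (n / (1 - 2 * g)) (g / n) → ∀ (E : Type) [Fintype E]
  (D : Finset E → Prop), Up D → ∀ (κ : ℕ) (δ a : ℝ), 0 ≤ δ → 0 < a →
    Th ((1 - p) * g) univ (fun X => Th ((1 - p) * (1 - g) / (1 - (1 - p) * g)) (univ \ X)
      (fun R => ind (Fam (g / (1 - g)) (n / (1 - 2 * g)) a κ δ D R X ∧
        ¬ Th (n / (1 - g)) R (fun N => ind (¬ D (X ∪ N))) ≤ 3 * a))) ≤
      (lam ^ κ * δ) ^ 7 / a ^ 17

/-- A6d : the first part of Lemma L -/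
def RowL1 : Prop := ∀ (p g n lam : ℝ) (B : ℕ), Cst p g n lam B → ∀ (E : Type) [Fintype E]
  (D : Finset E → Prop), Up D → ∀ j : ℕ, 1 ≤ j →
    Th p univ (fun V => ind (∃ X ⊆ V,
      ff g (n / (1 - g)) (lev B j) D (univ \ V) X ≤ (lev B j).τ ∧
      ((xx B (j - 1) : ℝ) ^ 163)⁻¹ ≤ Th g (univ \ V) (fun G =>
        ind (¬ ∃ Y ⊆ X, good (n / (1 - g)) (lev B (j - 1)) D (univ \ V) G Y)))) ≤
      ((xx B j : ℝ) ^ 119)⁻¹

/-- A6 : Lemma L -/
def RowL : Prop := ∀ (p g n lam : ℝ) (B : ℕ), Cst p g n lam B → ∀ (E : Type) [Fintype E]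
  (D : Finset E → Prop), Up D → ∀ j : ℕ, 1 ≤ j →
    Th p univ (fun V => ind (∃ X ⊆ V, Bad g (n / (1 - g)) B j D (univ \ V) X)) ≤
      ((xx B j : ℝ) ^ 99)⁻¹

/-- the blame of one level -/
def RowFin : Prop := ∀ (p g n lam : ℝ) (B : ℕ), Cst p g n lam B → ∀ (E : Type) [Fintype E]
  (D : Finset E → Prop), Up D → ∀ (j : ℕ) (b : E), 1 ≤ j →
    Th p univ (fun V => ind (∃ X ⊆ V, b ∈ X ∧ Bad g (n / (1 - g)) B j D (univ \ V) X)) ≤
      ((xx B j : ℝ))⁻¹ * JJ ((1 - p) * (g + n)) D b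

/-! ## A7 : the rule -/

/-- the finset of a set -/
def fs {E : Type} [Fintype E] (H : Set E) : Finset E := univ.filter fun e => e ∈ H

/-- the label is `true` on the test set. `H` is the set of the heavier sample elements. -/
def frame (E : Type) [Fintype E] (M : Matroid E) (p g n : ℝ) (B : ℕ) (hp0 : 0 ≤ p)
    (hp1 : p ≤ 1) : Frame E Bool where
  w := fun b => if b then p else 1 - p
  w0 := by
    intro l
    split_ifs
    · exact hp0
    · linarith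
  w1 := by simp
  v := true
  adm := fun _ z H => ¬ vio g (n / (1 - g)) (lev B 0) (fun A => z ∈ M.closure (A : Set E))
    (fs H) ∅
  forb := fun _ z H K => ∃ j, 1 ≤ j ∧ j ≤ Fintype.card E ∧
    Bad g (n / (1 - g)) B j (fun A => z ∈ M.closure (A : Set E)) (fs H) K

/-- A7a : the frame is correct -/
def RowOk : Prop := ∀ (E : Type) [Fintype E] (M : Matroid E), M.E = Set.univ →
  ∀ (p g n lam : ℝ) (B : ℕ) (hp0 : 0 ≤ p) (hp1 : p ≤ 1), Cst p g n lam B →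
    ∀ lt : E → E → Prop, IsStrictTotalOrder E lt → (frame E M p g n B hp0 hp1).Ok M lt

/-- A7b : a blame event is an event of the abstract analysis, with the up-set `DD M lt z`;
the label of `z` is independent -/
def RowBl : Prop := ∀ (E : Type) [Fintype E] (M : Matroid E), M.E = Set.univ →
  ∀ (p g n lam : ℝ) (B : ℕ) (hp0 : 0 ≤ p) (hp1 : p ≤ 1), Cst p g n lam B →
    ∀ lt : E → E → Prop, IsStrictTotalOrder E lt → ∀ b z : E, z ≠ b →
      EX (fun _ => (frame E M p g n B hp0 hp1).w) (fun ω : E → Bool =>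
        if Blame (frame E M p g n B hp0 hp1) lt b z ω then 1 else 0) ≤
      p * ∑ j ∈ Icc 1 (Fintype.card E), Th p univ (fun V => ind (∃ X ⊆ V, b ∈ X ∧
        Bad g (n / (1 - g)) B j (DD M lt z) (univ \ V) X))

/-- A10 : the theorem -/
def RowMain : Prop := ∃ c : ℝ, 0 < c ∧ ∀ (E : Type) [Fintype E] (M : Matroid E),
  M.E = Set.univ → ∃ R : OnlineRule M, R.IsCompetitive (ENNReal.ofReal c)

end

end Vale.Agent.P331.F
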